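import Vale.Agent.P329.H647.Defs

/-! Definition used to state the results on levels for one map of the letters. -/

namespace Vale.Agent.P329.H96

open Vale.Agent.P329.H647

/-- The map `φ` of the letters to the monoid `M` has level at most `h`: all languages recognised
through it, that is all sets of words whose product lies in some subset `S` of `M`, have
generalized star height at most `h`. -/
def MapLe {α M : Type} [Monoid M] (h : ℕ) (φ : α → M) : Prop :=
  ∀ S : Set M, HeightLe h {w : List α | (w.map φ).prod ∈ S}

end Vale.Agent.P329.H96
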