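import Vale.Agent.P329.R3.H96.Defs
import Vale.Agent.P329.R3.H211.Fin
import Vale.Agent.P329.H647.Fin

/-!
Normal solvable subgroups for one map of the letters. The proof of `ext_map` is that of
`H647.GrpH.ext`.
-/

set_option linter.all false

namespace Vale.Agent.P329.H96

open Vale.Agent.P329 Vale.Agent.P329.H112 Vale.Agent.P329.H157 Vale.Agent.P329.H647

theorem MapLe.aut {h : ℕ} {α G : Type} [Group G] {f : α → G} (hf : MapLe h f) :
    Aut h (fun (g : G) a => g * f a) := by
  intro q q'
  refine Eq.mp (congrArg (SH h) ?_) (hf {q⁻¹ * q'})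
  ext w
  change (w.map f).prod ∈ ({q⁻¹ * q'} : Set G) ↔ w.foldl (fun g a => g * f a) q = q'
  rw [H157.foldl_group, Set.mem_singleton_iff, eq_inv_mul_iff_mul_eq]

/-- Group extensions with abelian kernel, one map of the letters. -/
theorem ext_map {h : ℕ} {α G Q : Type} [Finite α] [Group G] [Finite G] [Group Q] [Finite Q]
    (π : G →* Q) (hab : ∀ x y : G, π x = 1 → π y = 1 → x * y = y * x) (f : α → G)
    (hf : MapLe h fun a => π (f a)) : MapLe (h + 1) f := by
  classical
  intro S
  letI : CommGroup π.ker :=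
    { (inferInstance : Group π.ker) with
      mul_comm := fun x y => Subtype.ext (hab x.1 y.1 x.2 y.2) }
  let δ : Q → α → Q := fun q a => q * π (f a)
  have hA : Aut h δ := hf.aut
  let s : Q → G := fun q => if hq : ∃ g, π g = q then hq.choose else 1
  have hs : ∀ g, π (s (π g)) = π g := by
    intro g
    have hq : ∃ g', π g' = π g := ⟨g, rfl⟩
    change π (if hq : ∃ g', π g' = π g then hq.choose else 1) = π g
    rw [dif_pos hq]
    exact hq.choose_spec
  let c : Q × α → π.ker := fun x =>
    if hx : s x.1 * f x.2 * (s (x.1 * π (f x.2)))⁻¹ ∈ π.ker then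
      ⟨s x.1 * f x.2 * (s (x.1 * π (f x.2)))⁻¹, hx⟩ else 1
  have hc : ∀ (g : G) (a : α), ((c (π g, a) : π.ker) : G) =
      s (π g) * f a * (s (π g * π (f a)))⁻¹ := by
    intro g a
    have hx : s (π g) * f a * (s (π g * π (f a)))⁻¹ ∈ π.ker := by
      rw [MonoidHom.mem_ker, map_mul, map_mul, map_inv, hs g, ← map_mul π g (f a), hs (g * f a),
        map_mul]
      group
    change ((if hx : s (π g) * f a * (s (π g * π (f a)))⁻¹ ∈ π.ker then
      (⟨s (π g) * f a * (s (π g * π (f a)))⁻¹, hx⟩ : π.ker) else 1 : π.ker) : G) = _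
    rw [dif_pos hx]
  have hrun : ∀ w : List α, w.foldl δ 1 = π (w.map f).prod := by
    intro w
    change w.foldl (fun q a => q * π (f a)) 1 = _
    rw [H157.foldl_group, one_mul, map_list_prod, List.map_map]
    rfl
  have key : ∀ w : List α, (w.map f).prod =
      (s 1)⁻¹ * (((ann δ id 1 w).map c).prod : π.ker) * s (w.foldl δ 1) := by
    intro w
    induction w using List.reverseRecOn with
    | nil => simp [ann]
    | append_singleton w a ih =>
      rw [List.map_append, List.prod_append, List.map_singleton, List.prod_singleton, ann_append,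
        List.map_append, List.prod_append, List.foldl_append, List.foldl_cons, List.foldl_nil]
      change (w.map f).prod * f a = (s 1)⁻¹ *
        ((((ann δ id 1 w).map c).prod * ([c (w.foldl δ 1, a)] : List π.ker).prod : π.ker) : G) *
          s (w.foldl δ 1 * π (f a))
      rw [hrun w] at ih
      rw [List.prod_singleton, Subgroup.coe_mul, hrun w, hc]
      calc (w.map f).prod * f a =
          ((s 1)⁻¹ * (((ann δ id 1 w).map c).prod : π.ker) * s (π (w.map f).prod)) * f a := by
            rw [← ih]
        _ = _ := by group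
  have h1 : SH (h + 1) (⋃ q : Q, ⋃ v : π.ker, ⋃ _ : (s 1)⁻¹ * (v : G) * s q ∈ S,
      {w : List α | w.foldl δ 1 = q ∧ ((ann δ id 1 w).map c).prod = v}) :=
    SH.iUnion fun q => SH.iUnion fun v => SH.iUnion_prop fun _ => val_sh hA c 1 q v
  refine Eq.mp (congrArg (SH (h + 1)) ?_) h1
  ext w
  simp only [Set.mem_iUnion, exists_prop]
  change (∃ q, ∃ v : π.ker, (s 1)⁻¹ * (v : G) * s q ∈ S ∧ w.foldl δ 1 = q ∧
    ((ann δ id 1 w).map c).prod = v) ↔ (w.map f).prod ∈ S
  rw [key w]
  constructor
  · rintro ⟨q, v, h2, h3, h4⟩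
    rw [h3, h4]; exact h2
  · intro h2
    exact ⟨_, _, h2, rfl, rfl⟩

/-- transport along an injective homomorphism -/
theorem MapLe.inj {h : ℕ} {α G Q : Type} [Group G] [Group Q] (π : G →* Q)
    (hπ : Function.Injective π) {f : α → G} (hf : MapLe h fun a => π (f a)) : MapLe h f := by
  intro S
  refine Eq.mp (congrArg (SH h) ?_) (hf (π '' S))
  ext w
  change (w.map fun a => π (f a)).prod ∈ π '' S ↔ (w.map f).prod ∈ S
  have h1 : (w.map fun a => π (f a)).prod = π (w.map f).prod := by
    rw [map_list_prod, List.map_map]; rfl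
  rw [h1, Function.Injective.mem_set_image hπ]

theorem MapLe.series {h : ℕ} {α G : Type} [Finite α] [Group G] [Finite G] (D : ℕ → Subgroup G)
    [hn : ∀ i, (D i).Normal] (f : α → G) (h0 : MapLe h fun a => (f a : G ⧸ D 0))
    (hD : ∀ i, ∀ x ∈ D i, ∀ y ∈ D i, x * y * x⁻¹ * y⁻¹ ∈ D (i + 1)) (hle : ∀ i, D (i + 1) ≤ D i) :
    ∀ k, MapLe (h + k) fun a => (f a : G ⧸ D k) := by
  intro k
  induction k with
  | zero => exact h0
  | succ k ih =>
    have : Finite (G ⧸ D k) := Quotient.finite _
    have : Finite (G ⧸ D (k + 1)) := Quotient.finite _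
    let π : G ⧸ D (k + 1) →* G ⧸ D k := QuotientGroup.map (D (k + 1)) (D k) (MonoidHom.id G)
      (fun x hx => hle k hx)
    refine ext_map π ?_ (fun a => (f a : G ⧸ D (k + 1))) ih
    intro x y
    induction x using QuotientGroup.induction_on with
    | H x =>
      induction y using QuotientGroup.induction_on with
      | H y =>
        intro hx hy
        have hx' : ((x : G) : G ⧸ D k) = 1 := hx
        have hy' : ((y : G) : G ⧸ D k) = 1 := hy
        rw [QuotientGroup.eq_one_iff] at hx' hy'
        have h1 := hD k _ ((D k).inv_mem hy') _ ((D k).inv_mem hx')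
        rw [← QuotientGroup.mk_mul, ← QuotientGroup.mk_mul, QuotientGroup.eq]
        rw [inv_inv, inv_inv] at h1
        have h2 : (x * y)⁻¹ * (y * x) = y⁻¹ * x⁻¹ * y * x := by group
        rw [h2]
        exact h1

/-- Normal solvable subgroups, one map of the letters. -/
theorem MapLe.solv {h k : ℕ} {α G : Type} [Finite α] [Group G] [Finite G] (N : Subgroup G)
    [hN : N.Normal] (hk : derivedSeries N k = ⊥) (f : α → G)
    (h0 : MapLe h fun a => (f a : G ⧸ N)) : MapLe (h + k) f := by
  let D : ℕ → Subgroup G := fun i => (derivedSeries N i).map N.subtype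
  have hn : ∀ i, (D i).Normal := fun i => by
    change ((derivedSeries N i).map N.subtype).Normal
    exact ConjAct.normal_of_characteristic_of_normal
  have hD0 : D 0 = N := by
    change (derivedSeries N 0).map N.subtype = N
    rw [derivedSeries_zero, ← MonoidHom.range_eq_map, Subgroup.range_subtype]
  have hDk : D k = ⊥ := by
    change (derivedSeries N k).map N.subtype = ⊥
    rw [hk, Subgroup.map_bot]
  have h1 : MapLe h fun a => (f a : G ⧸ D 0) := by
    refine MapLe.inj (QuotientGroup.map (D 0) N (MonoidHom.id G) (fun x hx => hD0 ▸ hx)) ?_ h0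
    rw [injective_iff_map_eq_one]
    intro x
    induction x using QuotientGroup.induction_on with
    | H x =>
      intro hx
      have hx' : ((x : G) : G ⧸ N) = 1 := hx
      rw [QuotientGroup.eq_one_iff] at hx' ⊢
      rw [hD0]; exact hx'
  have h2 := MapLe.series D f h1 (by
    rintro i x ⟨x', hx', rfl⟩ y ⟨y', hy', rfl⟩
    refine ⟨x' * y' * x'⁻¹ * y'⁻¹, ?_, by simp⟩
    rw [SetLike.mem_coe, derivedSeries_succ]
    exact Subgroup.commutator_mem_commutator hx' hy') (fun i => by
    refine Subgroup.map_mono ?_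
    exact derivedSeries_antitone N (Nat.le_succ i)) k
  refine MapLe.inj (QuotientGroup.mk' (D k)) ?_ h2
  rw [injective_iff_map_eq_one]
  intro x hx
  have hx' : ((x : G) : G ⧸ D k) = 1 := hx
  rw [QuotientGroup.eq_one_iff, hDk, Subgroup.mem_bot] at hx'
  exact hx'

/-- Monoids aperiodic over a map of the letters to a group. -/
theorem MapLe.over {h : ℕ} {α G M : Type} [Finite α] [Group G] [Finite G] [Monoid M] [Finite M]
    {F : α → G} (hF : MapLe h F) (φ : α → M)
    (hap : ∀ v : List α, v ≠ [] → (v.map F).prod = 1 →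
      ∃ k, (v.map φ).prod ^ (k + 1) = (v.map φ).prod ^ k) : MapLe h φ := by
  intro S
  refine malk (fun x a => x * F a) hF.aut (1 : G) φ (fun u v hv huv => hap v hv ?_) S
  rw [H157.foldl_group, H157.foldl_group, one_mul, one_mul, List.map_append, List.prod_append]
    at huv
  exact mul_eq_left.mp huv

/-- Finite products of factors of level one. -/
theorem MapLe.pi {α ι : Type} [Finite α] [Finite ι] {H : ι → Type} [∀ i, Group (H i)]
    [∀ i, Finite (H i)] (F : α → ∀ i, H i)
    (hF : ∀ i, DividesProduct (H i) ∨ H211.StepMap fun x => F x i) : MapLe 1 F := by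
  intro S
  refine H211.mon_known F hF F (fun v _ hv => ⟨0, ?_⟩) S
  rw [hv, one_pow, one_pow]

end Vale.Agent.P329.H96
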