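import Vale.Agent.P329.R3.H96.Short
import Vale.Agent.P329.S4.Class
import Vale.Agent.P329.S4.Main
import Vale.Agent.P329.S4.Four

/-!
Permutation groups of degree `n ≥ 4` have level at most `n - 3`.
-/

set_option linter.all false

namespace Vale.Agent.P329.H96

open Vale.Agent.P329 Vale.Agent.P329.H112 Vale.Agent.P329.H157 Vale.Agent.P329.H647

theorem perm_succ {h n : ℕ} (hn : Recog h (Equiv.Perm (Fin n))) :
    Recog (h + 1) (Equiv.Perm (Fin (n + 1))) := by
  have h1 : GrpH (h + 1) (Equiv.Perm (Option (Fin n))) := fun α _ f S =>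
    MapLe.short f (fun S' => hn α (fun a => Equiv.removeNone (f a)) S') S
  exact GrpH.inj h1 (Equiv.permCongrHom (finSuccEquiv n)).toMonoidHom
    (Equiv.permCongrHom (finSuccEquiv n)).injective

theorem perm_four : Recog 1 (Equiv.Perm (Fin 4)) := by
  intro α _ f S
  have h1 := (S4.e2s3_known S4.four f).comp fun g => g ∈ S
  refine Eq.mp (congrArg (SH 1) ?_) (h1 True)
  ext w
  exact ⟨fun h => of_eq_true h, fun h => eq_true h⟩

theorem perm_add (m : ℕ) : Recog (m + 1) (Equiv.Perm (Fin (4 + m))) := by
  induction m with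
  | zero => exact perm_four
  | succ m ih => exact perm_succ ih

/-- Permutation groups of degree `n ≥ 4` have level at most `n - 3`. -/
theorem perm_le {n : ℕ} (hn : 4 ≤ n) {G : Type} [Group G] (π : G →* Equiv.Perm (Fin n))
    (hπ : Function.Injective π) : Recog (n - 3) G := by
  obtain ⟨m, rfl⟩ := Nat.exists_eq_add_of_le hn
  have h1 : 4 + m - 3 = m + 1 := by omega
  rw [h1]
  exact GrpH.inj (perm_add m) π hπ

/-- Solvable normal subgroup with a quotient of permutations of `n` points. -/
theorem solv_perm_le {n k : ℕ} (hn : 4 ≤ n) {G : Type} [Group G] [Finite G]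
    (π : G →* Equiv.Perm (Fin n)) (hk : derivedSeries π.ker k = ⊥) : Recog (n - 3 + k) G := by
  have h1 : Recog (n - 3) (G ⧸ π.ker) :=
    perm_le hn (QuotientGroup.kerLift π) (QuotientGroup.kerLift_injective π)
  exact GrpH.solv π.ker hk h1

end Vale.Agent.P329.H96
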