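import Vale.Agent.P329.R3.H96.Fin
import Mathlib.Logic.Equiv.Option
import Mathlib.Logic.Equiv.Fin.Basic

/-!
Short-circuiting a point: the level of a map of the letters to the permutations of `Option Y` is
at most one more than the level of the short-circuited map to the permutations of `Y`.
The argument was proposed by helper162.
-/

set_option linter.all false

namespace Vale.Agent.P329.H96

open Vale.Agent.P329 Vale.Agent.P329.H112 Vale.Agent.P329.H157 Vale.Agent.P329.H647

section sc

variable {α Y : Type} (f : α → Equiv.Perm (Option Y))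

/-- the automaton on all points -/
def gof (x : Option Y) (a : α) : Option Y := (f a).symm x

/-- the automaton off the root `none`, which is a sink -/
def off (x : Option Y) (a : α) : Option Y := x.bind fun y => (f a).symm (some y)

theorem off_none (w : List α) : w.foldl (off f) none = none := by
  induction w with
  | nil => rfl
  | cons a w ih => rw [List.foldl_cons]; exact ih

theorem off_some (y : Y) (a : α) : off f (some y) a = (f a).symm (some y) := rfl

/-- off the root the two automata agree -/
theorem off_gof (w : List α) : ∀ x y : Y, w.foldl (off f) (some x) = some y →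
    w.foldl (gof f) (some x) = some y := by
  induction w with
  | nil => intro x y h; exact h
  | cons a w ih =>
    intro x y h
    rw [List.foldl_cons] at h ⊢
    rw [off_some] at h
    change w.foldl (gof f) ((f a).symm (some x)) = some y
    cases hx : (f a).symm (some x) with
    | none => rw [hx, off_none] at h; exact absurd h (by simp)
    | some x' => rw [hx] at h; exact ih x' y h

/-- off the root the automaton agrees with the short-circuited permutations -/
theorem off_short (w : List α) : ∀ x y : Y, w.foldl (off f) (some x) = some y →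
    ((w.map fun a => Equiv.removeNone (f a)).prod)⁻¹ x = y := by
  induction w with
  | nil =>
    intro x y h
    rw [List.foldl_nil, Option.some.injEq] at h
    simpa using h
  | cons a w ih =>
    intro x y h
    rw [List.foldl_cons, off_some] at h
    cases hx : (f a).symm (some x) with
    | none => rw [hx, off_none] at h; exact absurd h (by simp)
    | some x' =>
      rw [hx] at h
      rw [List.map_cons, List.prod_cons, mul_inv_rev, Equiv.Perm.mul_apply]
      have h1 : (Equiv.removeNone (f a))⁻¹ x = x' := by
        change (Equiv.removeNone (f a)).symm x = x'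
        rw [Equiv.removeNone_symm]
        have h2 := Equiv.removeNone_some (f a).symm (x := x) ⟨x', hx⟩
        rw [hx, Option.some.injEq] at h2
        exact h2
      rw [h1]
      exact ih x' y h

/-- the transformations off the root -/
def offTr (a : α) : Tr (Option Y) := ⟨fun x => off f x a⟩

theorem offTr_prod (w : List α) (x : Option Y) : ((w.map (offTr f)).prod).f x =
    w.foldl (off f) x := by
  induction w generalizing x with
  | nil => rfl
  | cons a w ih =>
    rw [List.map_cons, List.prod_cons, Tr.mul_f, ih, List.foldl_cons]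
    rfl

/-- words from `x` to `y` which avoid the root -/
theorem avoid_sh [Finite α] [Finite Y] {h : ℕ}
    (hF : MapLe h fun a => Equiv.removeNone (f a)) (x y : Y) :
    SH h {w : List α | w.foldl (off f) (some x) = some y} := by
  have h1 : MapLe h (offTr f) := by
    refine MapLe.over hF (offTr f) (fun v _ hv => ⟨1, ?_⟩)
    have key : ∀ z : Option Y, v.foldl (off f) z = none ∨ v.foldl (off f) z = z := by
      intro z
      cases z with
      | none => exact Or.inl (off_none f v)
      | some z =>
        cases hz : v.foldl (off f) (some z) with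
        | none => exact Or.inl rfl
        | some z' =>
          right
          have h2 := off_short f v z z' hz
          rw [hv, inv_one, Equiv.Perm.one_apply] at h2
          rw [h2]
    refine Tr.ext' fun z => ?_
    rw [pow_succ, pow_one, Tr.mul_f, offTr_prod, offTr_prod]
    rcases key z with h3 | h3
    · rw [h3, off_none]
    · rw [h3, h3]
  refine Eq.mp (congrArg (SH h) ?_) (h1 {m | m.f (some x) = some y})
  ext w
  change ((w.map (offTr f)).prod).f (some x) = some y ↔ w.foldl (off f) (some x) = some y
  rw [offTr_prod]

/-- words from `x` to the root which end at the first visit -/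
def inw (x : Y) : Set (List α) :=
  {u | ∃ u' b z, u = u' ++ [b] ∧ u'.foldl (off f) (some x) = some z ∧ (f b).symm (some z) = none}

/-- the first return words of the root -/
def ret : Set (List α) :=
  {u | (∃ a, u = [a] ∧ (f a).symm none = none) ∨
    ∃ a x u', u = a :: u' ∧ (f a).symm none = some x ∧ u' ∈ inw f x}

/-- words from the root to `y` without further visits of the root -/
def out : Option Y → Set (List α)
  | none => {[]}
  | some y => {u | ∃ a x u', u = a :: u' ∧ (f a).symm none = some x ∧
      u'.foldl (off f) (some x) = some y}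

theorem inw_sh [Finite α] [Finite Y] {h : ℕ}
    (hF : MapLe h fun a => Equiv.removeNone (f a)) (x : Y) : SH h (inw f x) := by
  have h1 : SH h (⋃ b : α, ⋃ z : Y, ⋃ _ : (f b).symm (some z) = none,
      cat {w : List α | w.foldl (off f) (some x) = some z} {[b]}) :=
    SH.iUnion fun b => SH.iUnion fun z => SH.iUnion_prop fun _ =>
      (avoid_sh f hF x z).cat (SH.single b)
  refine Eq.mp (congrArg (SH h) ?_) h1
  ext w
  simp only [Set.mem_iUnion, exists_prop]
  constructor
  · rintro ⟨b, z, h2, u, hu, v, rfl, rfl⟩
    exact ⟨u, b, z, rfl, hu, h2⟩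
  · rintro ⟨u, b, z, rfl, hu, h2⟩
    exact ⟨b, z, h2, u, hu, [b], rfl, rfl⟩

theorem ret_sh [Finite α] [Finite Y] {h : ℕ}
    (hF : MapLe h fun a => Equiv.removeNone (f a)) : SH h (ret f) := by
  have h1 : SH h ((⋃ a : α, ⋃ _ : (f a).symm none = none, {[a]}) ∪
      ⋃ a : α, ⋃ x : Y, ⋃ _ : (f a).symm none = some x, cat {[a]} (inw f x)) :=
    (SH.iUnion fun a => SH.iUnion_prop fun _ => SH.single a).union
      (SH.iUnion fun a => SH.iUnion fun x => SH.iUnion_prop fun _ =>
        (SH.single a).cat (inw_sh f hF x))
  refine Eq.mp (congrArg (SH h) ?_) h1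
  ext w
  simp only [Set.mem_union, Set.mem_iUnion, exists_prop]
  constructor
  · rintro (⟨a, h2, rfl⟩ | ⟨a, x, h2, u, rfl, v, hv, rfl⟩)
    · exact Or.inl ⟨a, rfl, h2⟩
    · exact Or.inr ⟨a, x, v, rfl, h2, hv⟩
  · rintro (⟨a, rfl, h2⟩ | ⟨a, x, v, rfl, h2, hv⟩)
    · exact Or.inl ⟨a, h2, rfl⟩
    · exact Or.inr ⟨a, x, h2, [a], rfl, v, hv, rfl⟩

theorem out_sh [Finite α] [Finite Y] {h : ℕ}
    (hF : MapLe h fun a => Equiv.removeNone (f a)) (y : Option Y) : SH h (out f y) := by
  cases y with
  | none => exact SH.eps
  | some y =>
    have h1 : SH h (⋃ a : α, ⋃ x : Y, ⋃ _ : (f a).symm none = some x,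
        cat {[a]} {w : List α | w.foldl (off f) (some x) = some y}) :=
      SH.iUnion fun a => SH.iUnion fun x => SH.iUnion_prop fun _ =>
        (SH.single a).cat (avoid_sh f hF x y)
    refine Eq.mp (congrArg (SH h) ?_) h1
    ext w
    simp only [Set.mem_iUnion, exists_prop]
    constructor
    · rintro ⟨a, x, h2, u, rfl, v, hv, rfl⟩
      exact ⟨a, x, v, rfl, h2, hv⟩
    · rintro ⟨a, x, v, rfl, h2, hv⟩
      exact ⟨a, x, h2, [a], rfl, v, hv, rfl⟩

/-- the first visit of the root -/
theorem split_root (w : List α) : ∀ x : Y, w.foldl (off f) (some x) = none →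
    ∃ u v, w = u ++ v ∧ u ∈ inw f x := by
  induction w with
  | nil => intro x h; exact absurd h (by simp)
  | cons a w ih =>
    intro x h
    rw [List.foldl_cons, off_some] at h
    cases hx : (f a).symm (some x) with
    | none => exact ⟨[a], w, rfl, [], a, x, rfl, rfl, hx⟩
    | some x' =>
      rw [hx] at h
      obtain ⟨u, v, rfl, u', b, z, rfl, h1, h2⟩ := ih x' h
      refine ⟨a :: (u' ++ [b]), v, rfl, a :: u', b, z, rfl, ?_, h2⟩
      rw [List.foldl_cons, off_some, hx, h1]

theorem inw_gof {x : Y} {u : List α} (hu : u ∈ inw f x) : u.foldl (gof f) (some x) = none := by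
  obtain ⟨u', b, z, rfl, h1, h2⟩ := hu
  rw [List.foldl_append, off_gof f u' x z h1]
  exact h2

theorem ret_gof {u : List α} (hu : u ∈ ret f) : u.foldl (gof f) none = none := by
  rcases hu with ⟨a, rfl, h1⟩ | ⟨a, x, u', rfl, h1, h2⟩
  · exact h1
  · rw [List.foldl_cons]
    change u'.foldl (gof f) ((f a).symm none) = none
    rw [h1]
    exact inw_gof f h2

theorem out_gof (y : Option Y) {u : List α} (hu : u ∈ out f y) : u.foldl (gof f) none = y := by
  cases y with
  | none => rw [Set.mem_singleton_iff.1 hu]; rfl
  | some y =>
    obtain ⟨a, x, u', rfl, h1, h2⟩ := hu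
    rw [List.foldl_cons]
    change u'.foldl (gof f) ((f a).symm none) = some y
    rw [h1]
    exact off_gof f u' x y h2

theorem kst_step {K : Set (List α)} {k z : List α} (hk : k ∈ K) (hz : z ∈ kst K) :
    k ++ z ∈ kst K := by
  obtain ⟨L, hL, rfl⟩ := hz
  refine ⟨k :: L, fun u hu => ?_, rfl⟩
  rcases List.mem_cons.1 hu with rfl | hu
  · exact hk
  · exact hL u hu

/-- paths from the root -/
theorem root_eq (y : Option Y) :
    {w : List α | w.foldl (gof f) none = y} = cat (kst (ret f)) (out f y) := by
  ext w
  constructor
  · intro hw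
    change w.foldl (gof f) none = y at hw
    obtain ⟨n, hn⟩ : ∃ n, w.length ≤ n := ⟨_, le_rfl⟩
    induction n generalizing w with
    | zero =>
      have : w = [] := List.length_eq_zero_iff.1 (Nat.le_zero.1 hn)
      subst this
      rw [← hw]
      exact ⟨[], ⟨[], by simp, rfl⟩, [], rfl, rfl⟩
    | succ n ih =>
      cases w with
      | nil =>
        rw [← hw]
        exact ⟨[], ⟨[], by simp, rfl⟩, [], rfl, rfl⟩
      | cons a w =>
        rw [List.foldl_cons] at hw
        rw [List.length_cons] at hn
        change w.foldl (gof f) ((f a).symm none) = y at hw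
        cases hx : (f a).symm none with
        | none =>
          rw [hx] at hw
          obtain ⟨u, hu, v, hv, rfl⟩ := ih w hw (by omega)
          exact ⟨[a] ++ u, kst_step (Or.inl ⟨a, rfl, hx⟩) hu, v, hv, rfl⟩
        | some x =>
          rw [hx] at hw
          cases hz : w.foldl (off f) (some x) with
          | none =>
            obtain ⟨u, v, rfl, hu⟩ := split_root f w x hz
            rw [List.foldl_append, inw_gof f hu] at hw
            rw [List.length_append] at hn
            obtain ⟨s, hs, t, ht, rfl⟩ := ih v hw (by omega)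
            refine ⟨(a :: u) ++ s, kst_step (Or.inr ⟨a, x, u, rfl, hx, hu⟩) hs, t, ht, ?_⟩
            simp
          | some z =>
            have h1 := off_gof f w x z hz
            rw [h1] at hw
            subst hw
            exact ⟨[], ⟨[], by simp, rfl⟩, a :: w, ⟨a, x, w, rfl, hx, hz⟩, rfl⟩
  · rintro ⟨u, ⟨L, hL, rfl⟩, v, hv, rfl⟩
    change (L.flatten ++ v).foldl (gof f) none = y
    have h1 : L.flatten.foldl (gof f) none = none := by
      clear hv
      induction L with
      | nil => rfl
      | cons u L ih =>
        rw [List.flatten_cons, List.foldl_append,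
          ret_gof f (hL u (List.mem_cons_self ..))]
        exact ih fun u hu => hL u (List.mem_cons_of_mem _ hu)
    rw [List.foldl_append, h1]
    exact out_gof f y hv

theorem gof_sh [Finite α] [Finite Y] {h : ℕ}
    (hF : MapLe h fun a => Equiv.removeNone (f a)) (x y : Option Y) :
    SH (h + 1) {w : List α | w.foldl (gof f) x = y} := by
  have h0 : ∀ y, SH (h + 1) {w : List α | w.foldl (gof f) none = y} := by
    intro y
    rw [root_eq]
    exact (ret_sh f hF).kst.cat ((out_sh f hF y).mono (Nat.le_succ h))
  cases x with
  | none => exact h0 y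
  | some x =>
    have h1 : SH (h + 1) ((⋃ z : Y, ⋃ _ : some z = y,
        {w : List α | w.foldl (off f) (some x) = some z}) ∪
        cat (inw f x) {w : List α | w.foldl (gof f) none = y}) :=
      (SH.iUnion fun z => SH.iUnion_prop fun _ =>
        (avoid_sh f hF x z).mono (Nat.le_succ h)).union
        (((inw_sh f hF x).mono (Nat.le_succ h)).cat (h0 y))
    refine Eq.mp (congrArg (SH (h + 1)) ?_) h1
    ext w
    simp only [Set.mem_union, Set.mem_iUnion, exists_prop]
    constructor
    · rintro (⟨z, rfl, hw⟩ | ⟨u, hu, v, hv, rfl⟩)
      · exact off_gof f w x z hw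
      · change (u ++ v).foldl (gof f) (some x) = y
        rw [List.foldl_append, inw_gof f hu]
        exact hv
    · intro hw
      change w.foldl (gof f) (some x) = y at hw
      cases hz : w.foldl (off f) (some x) with
      | none =>
        obtain ⟨u, v, rfl, hu⟩ := split_root f w x hz
        rw [List.foldl_append, inw_gof f hu] at hw
        exact Or.inr ⟨u, hu, v, hw, rfl⟩
      | some z =>
        have h2 := off_gof f w x z hz
        rw [h2] at hw
        exact Or.inl ⟨z, hw, hz⟩

theorem gof_prod (w : List α) (x : Option Y) :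
    w.foldl (gof f) x = ((w.map f).prod)⁻¹ x := by
  induction w generalizing x with
  | nil => simp
  | cons a w ih =>
    rw [List.foldl_cons, ih, List.map_cons, List.prod_cons, mul_inv_rev, Equiv.Perm.mul_apply]
    rfl

/-- **Short-circuiting a point.** -/
theorem MapLe.short [Finite α] [Finite Y] {h : ℕ}
    (hF : MapLe h fun a => Equiv.removeNone (f a)) : MapLe (h + 1) f := by
  intro S
  have h1 : SH (h + 1) (⋃ g : Equiv.Perm (Option Y), ⋃ _ : g ∈ S,
      ⋂ x : Option Y, {w : List α | w.foldl (gof f) x = g⁻¹ x}) :=
    SH.iUnion fun g => SH.iUnion_prop fun _ => SH.iInter fun x => gof_sh f hF x _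
  refine Eq.mp (congrArg (SH (h + 1)) ?_) h1
  ext w
  simp only [Set.mem_iUnion, exists_prop, Set.mem_iInter]
  change (∃ g ∈ S, ∀ x, w.foldl (gof f) x = g⁻¹ x) ↔ (w.map f).prod ∈ S
  constructor
  · rintro ⟨g, hg, h2⟩
    have h3 : (w.map f).prod = g := by
      have h4 : ((w.map f).prod)⁻¹ = g⁻¹ := Equiv.ext fun x => by rw [← h2 x, gof_prod]
      exact inv_injective h4
    rw [h3]; exact hg
  · intro hg
    exact ⟨_, hg, fun x => gof_prod f w x⟩

end sc

end Vale.Agent.P329.H96
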